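import Vale.Agent.Lib.P062.Strip5

namespace Vale.Agent.Results.P062.Strip5

open Vale.Agent.Lib.P062

/-- On the infinite strip `ℤ × {0,1,2,3,4}` Breaker has a winning strategy in the Snaky
achievement game (no handicap, Maker moves first); in particular Maker cannot force a win. -/
theorem result : BreakerWins (strip 5) copies ∧ ¬ MakerWins (strip 5) copies :=
  ⟨strip5_breaker, strip5_breaker.not_makerWins⟩

end Vale.Agent.Results.P062.Strip5
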